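import Vale.Agent.P246.R2.H429.Defs2

/-! # P246, row LB: the Euler characteristic of a D(2) complex is not negative (helper290) -/

namespace Vale.Agent.P246.H290

open Module Finset Vale.Agent.P246 Vale.Agent.P246.H429

theorem arith (m z b : ℕ → ℕ) (h0 : m 0 = z 0) (h1 : ∀ i, m (i + 1) = z (i + 1) + b i)
    (h2 : ∀ i, b i ≤ z i) (h3 : ∀ i, i ≠ 1 → b (i + 1) = z (i + 1)) (k : ℕ) :
    (-1 : ℤ) ^ k * z k ≤ ∑ i ∈ range (k + 1), (-1 : ℤ) ^ i * m i := by
  induction k with
  | zero => simp [h0]
  | succ k ih =>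
    rw [sum_range_succ, h1 k]
    have h4 : 0 ≤ (-1 : ℤ) ^ k * ((z k : ℤ) - b k) := by
      have h5 : (b k : ℤ) ≤ z k := by exact_mod_cast h2 k
      rcases k with _ | k
      · simpa using h5
      · by_cases hk : k = 1
        · subst hk
          simpa using h5
        · rw [h3 k hk]
          simp
    have h6 : (-1 : ℤ) ^ (k + 1) * ((z (k + 1) + b k : ℕ) : ℤ) =
        (-1 : ℤ) ^ (k + 1) * z (k + 1) - (-1 : ℤ) ^ k * b k := by
      push_cast
      ring
    rw [h6]
    linarith [mul_sub ((-1 : ℤ) ^ k) (z k : ℤ) (b k : ℤ)]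

section

variable {S : Type} [CommRing S] [IsDomain S]

theorem finrank_mono' {M : Type} [AddCommGroup M] [Module S M] [Module.Finite S M]
    {p q : Submodule S M} (h : p ≤ q) : finrank S p ≤ finrank S q := by
  have h1 : Module.rank S p ≤ Module.rank S q := Submodule.rank_mono h
  rw [← Submodule.finrank_eq_rank, ← Submodule.finrank_eq_rank] at h1
  exact_mod_cast h1

theorem rank_null {M N : Type} [AddCommGroup M] [Module S M] [Module.Finite S M]
    [AddCommGroup N] [Module S N] (f : M →ₗ[S] N) :
    finrank S M = finrank S (LinearMap.ker f) + finrank S (LinearMap.range f) := by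
  rw [← Submodule.finrank_quotient_add_finrank (LinearMap.ker f),
    f.quotKerEquivRange.finrank_eq, add_comm]

/-- the Euler characteristic of a complex which is exact except in degrees `0` and `2` -/
theorem chi_nonneg (M : ℕ → Type) [∀ i, AddCommGroup (M i)] [∀ i, Module S (M i)]
    [∀ i, Module.Finite S (M i)] (d : ∀ i, M (i + 1) →ₗ[S] M i)
    (hdd : ∀ i x, d i (d (i + 1) x) = 0)
    (hex : ∀ i, i ≠ 1 → ∀ x : M (i + 1), d i x = 0 → ∃ y, d (i + 1) y = x) (N : ℕ)
    (hN : ∀ i, N ≤ i → finrank S (M i) = 0) :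
    0 ≤ ∑ i ∈ range N, (-1 : ℤ) ^ i * finrank S (M i) := by
  let z : ℕ → ℕ := fun i => match i with
    | 0 => finrank S (M 0)
    | i + 1 => finrank S (LinearMap.ker (d i))
  let b : ℕ → ℕ := fun i => finrank S (LinearMap.range (d i))
  have hle : ∀ i, LinearMap.range (d (i + 1)) ≤ LinearMap.ker (d i) := by
    rintro i _ ⟨y, rfl⟩
    exact hdd i y
  have h1 : ∀ i, finrank S (M (i + 1)) = z (i + 1) + b i := fun i => rank_null (d i)
  have h2 : ∀ i, b i ≤ z i := by
    intro i
    rcases i with _ | i
    · exact Submodule.finrank_le _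
    · exact finrank_mono' (hle i)
  have h3 : ∀ i, i ≠ 1 → b (i + 1) = z (i + 1) := by
    intro i hi
    have : LinearMap.range (d (i + 1)) = LinearMap.ker (d i) :=
      le_antisymm (hle i) fun x hx => by
        obtain ⟨y, hy⟩ := hex i hi x hx
        exact ⟨y, hy⟩
    change finrank S (LinearMap.range (d (i + 1))) = finrank S (LinearMap.ker (d i))
    rw [this]
  have h := arith (fun i => finrank S (M i)) z b rfl h1 h2 h3 N
  have hz : z N = 0 := by
    rcases N with _ | N
    · exact hN 0 le_rfl
    · have h4 := h1 N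
      have h5 := hN (N + 1) le_rfl
      omega
  rw [sum_range_succ, hN N le_rfl, hz] at h
  simpa using h

theorem finrank_prod' (A B : Type) [AddCommGroup A] [Module S A] [Module.Finite S A]
    [AddCommGroup B] [Module S B] [Module.Finite S B] :
    finrank S (A × B) = finrank S A + finrank S B := by
  have h1 : LinearMap.range (LinearMap.snd S A B) = ⊤ :=
    LinearMap.range_eq_top.2 fun y => ⟨(0, y), rfl⟩
  rw [rank_null (LinearMap.snd S A B), h1, finrank_top, LinearMap.ker_snd,
    ← (LinearEquiv.ofInjective (LinearMap.inl S A B) LinearMap.inl_injective).finrank_eq]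

theorem finrank_pow (A : Type) [AddCommGroup A] [Module S A] [Module.Finite S A] (n : ℕ) :
    finrank S (Fin n → A) = n * finrank S A := by
  induction n with
  | zero => rw [zero_mul, finrank_zero_of_subsingleton]
  | succ n ih =>
    rw [← (Fin.consLinearEquiv S fun _ : Fin (n + 1) => A).finrank_eq, finrank_prod', ih]
    ring

end

/-- the general form -/
theorem lb_aux {S A : Type} [CommRing S] [IsDomain S] [Ring A] [Module S A] [Module.Finite S A]
    (f : S →+* A) (hf : Function.Injective f) (hsm : ∀ (s : S) (a : A), s • a = f s * a)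
    (C : ChainComplex (ModuleCat.{0} A) ℕ) (hex : ∀ i, i ≠ 1 → C.ExactAt (i + 1)) (c : ℕ → ℕ)
    (N : ℕ) (hc : ∀ i, Nonempty (C.X i ≃ₗ[A] (Fin (c i) → A))) (hN : ∀ i, N ≤ i → c i = 0) :
    0 ≤ ∑ i ∈ range N, (-1 : ℤ) ^ i * c i := by
  let hmod : ∀ i, Module S (C.X i) := fun i => Module.compHom (C.X i) f
  have htow : ∀ i, IsScalarTower S A (C.X i) := fun i =>
    ⟨fun s a x => by
      rw [hsm, mul_smul]
      rfl⟩
  have htow' : IsScalarTower S A A := ⟨fun s a x => by
    rw [hsm, hsm, smul_eq_mul, smul_eq_mul, mul_assoc]⟩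
  have he : ∀ i, Nonempty (C.X i ≃ₗ[S] (Fin (c i) → A)) := fun i =>
    ⟨(hc i).some.restrictScalars S⟩
  have hfin : ∀ i, Module.Finite S (C.X i) := fun i => Module.Finite.equiv (he i).some.symm
  have hrk : ∀ i, finrank S (C.X i) = c i * finrank S A := fun i => by
    rw [(he i).some.finrank_eq, finrank_pow]
  let d : ∀ i, C.X (i + 1) →ₗ[S] C.X i := fun i => (C.d (i + 1) i).hom.restrictScalars S
  have h := chi_nonneg (S := S) (fun i => C.X i) d (fun i x => dd_zero C (i + 2) (i + 1) i x)
    (fun i hi x hx => (exactAt_succ_iff C i).1 (hex i hi) x hx) N (fun i hi => by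
      rw [hrk, hN i hi, zero_mul])
  have hpos : 0 < finrank S A := by
    have h1 := LinearMap.finrank_le_finrank_of_injective
      (f := (LinearMap.toSpanSingleton S A 1)) (by
        intro s t hst
        apply hf
        have h2 : s • (1 : A) = t • (1 : A) := hst
        rwa [hsm, hsm, mul_one, mul_one] at h2)
    rw [finrank_self] at h1
    omega
  have h2 : ∑ i ∈ range N, (-1 : ℤ) ^ i * finrank S (C.X i) =
      (∑ i ∈ range N, (-1 : ℤ) ^ i * c i) * finrank S A := by
    rw [sum_mul]
    refine sum_congr rfl fun i _ => ?_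
    rw [hrk]
    push_cast
    ring
  have h3 : 0 ≤ (∑ i ∈ range N, (-1 : ℤ) ^ i * c i) * (finrank S A : ℤ) := h2 ▸ h
  exact nonneg_of_mul_nonneg_left h3 (by exact_mod_cast hpos)

/-- ROW LB. -/
theorem rowLB : ∀ (G : Type) [Group G] (h : ℕ),
    (∃ N : Subgroup G, N.FiniteIndex ∧ Nonempty (N ≃* Multiplicative (Fin h → ℤ))) →
    ∀ C : Cx (ZG G), IsD2Complex C → ∀ n : ℤ, HasEuler C n → 0 ≤ n := by
  rintro G _ h ⟨K, hK, ⟨e⟩⟩ C hC n ⟨c, N, hc, hN, rfl⟩
  have hdom := isDomain_S h
  let ι : Zn h →* G := K.subtype.comp e.symm.toMonoidHom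
  have hι : Function.Injective ι := Subtype.val_injective.comp e.symm.injective
  let j : ZG (Zn h) →+* ZG G := MonoidAlgebra.mapDomainRingHom ℤ ι
  have hj : ∀ k r, j (MonoidAlgebra.single k r) = MonoidAlgebra.single (ι k) r := by
    intro k r
    simp [j]
  have hjinj : Function.Injective j := MonoidAlgebra.mapDomain_injective hι
  let : Module (ZG (Zn h)) (ZG G) := Module.compHom _ j
  have hfin : Module.Finite (ZG (Zn h)) (ZG G) := by
    have : Finite (Quotient (QuotientGroup.rightRel K)) := by
      have := hK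
      exact (Finite.of_equiv _ (QuotientGroup.quotientRightRelEquivQuotientLeftRel K).symm)
    refine ⟨⟨(Set.finite_range fun t : Quotient (QuotientGroup.rightRel K) =>
      (MonoidAlgebra.single t.out (1 : ℤ) : ZG G)).toFinset, ?_⟩⟩
    rw [eq_top_iff]
    rintro x -
    induction x using MonoidAlgebra.induction_linear with
    | zero => exact Submodule.zero_mem _
    | add x y hx hy => exact Submodule.add_mem _ hx hy
    | single g r =>
      let t : Quotient (QuotientGroup.rightRel K) := Quotient.mk'' g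
      have ht : g * (t.out)⁻¹ ∈ K := by
        have h1 : (QuotientGroup.rightRel K) t.out g := Quotient.exact (Quotient.out_eq t)
        rwa [QuotientGroup.rightRel_apply] at h1
      have hs : (MonoidAlgebra.single g r : ZG G) =
          (MonoidAlgebra.single (e ⟨_, ht⟩) r : ZG (Zn h)) •
            (MonoidAlgebra.single t.out (1 : ℤ) : ZG G) := by
        change _ = j (MonoidAlgebra.single _ r) * MonoidAlgebra.single t.out (1 : ℤ)
        rw [hj, MonoidAlgebra.single_mul_single, mul_one]
        congr 1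
        simp [ι]
      rw [hs]
      refine Submodule.smul_mem _ _ (Submodule.subset_span ?_)
      rw [Set.Finite.coe_toFinset]
      exact ⟨t, rfl⟩
  have hD := IsD2Complex.data (G := G) C hC
  refine lb_aux j hjinj (fun _ _ => rfl) C ?_ c N hc hN
  intro i hi
  rcases i with _ | i
  · exact hD.homology_one
  · exact hD.homology_high _ (by omega)

end Vale.Agent.P246.H290
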